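import Mathlib

/-! P100: elementary facts on the Laplacian (radial functions, minimum test, products, Green). -/

open MeasureTheory Set Filter Topology InnerProductSpace Laplacian

namespace Vale.Agent.P100H

abbrev E (n : ℕ) := EuclideanSpace ℝ (Fin n)

variable {n : ℕ}

noncomputable def ee (i : Fin n) : E n := EuclideanSpace.basisFun (Fin n) ℝ i

lemma lap_eq (f : E n → ℝ) (x : E n) :
    Δ f x = ∑ i, fderiv ℝ (fderiv ℝ f) x (ee i) (ee i) := by
  rw [laplacian_eq_iteratedFDeriv_orthonormalBasis f (EuclideanSpace.basisFun (Fin n) ℝ)]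
  simp only [iteratedFDeriv_two_apply, ee]
  rfl

lemma fderiv_apply_fderiv {f : E n → ℝ} {x : E n} (hf : ContDiffAt ℝ 2 f x) (v w : E n) :
    fderiv ℝ (fun y => fderiv ℝ f y w) x v = fderiv ℝ (fderiv ℝ f) x v w := by
  have h1 : DifferentiableAt ℝ (fderiv ℝ f) x :=
    (hf.fderiv_right (m := 1) (by norm_num)).differentiableAt (by norm_num)
  rw [fderiv_clm_apply h1 (differentiableAt_const w)]
  simp

lemma lap_eq' {f : E n → ℝ} {x : E n} (hf : ContDiffAt ℝ 2 f x) :
    Δ f x = ∑ i, fderiv ℝ (fun y => fderiv ℝ f y (ee i)) x (ee i) := by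
  rw [lap_eq]
  exact Finset.sum_congr rfl fun i _ => (fderiv_apply_fderiv hf _ _).symm

lemma sum_inner_ee_sq (z : E n) : ∑ i, (inner ℝ z (ee i)) ^ 2 = ‖z‖ ^ 2 := by
  have := (EuclideanSpace.basisFun (Fin n) ℝ).sum_sq_inner_left z
  simpa [ee] using this

lemma norm_ee (i : Fin n) : ‖(ee i : E n)‖ = 1 := (EuclideanSpace.basisFun (Fin n) ℝ).orthonormal.1 i

lemma hasFDerivAt_normsq (a y : E n) :
    HasFDerivAt (fun y : E n => ‖y - a‖ ^ 2) ((2 : ℝ) • innerSL ℝ (y - a)) y := by
  have h := ((hasFDerivAt_id y).sub_const a).norm_sq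
  refine HasFDerivAt.congr_fderiv (f := fun y : E n => ‖y - a‖ ^ 2) h ?_
  ext v
  simp [two_smul]

/-- first derivative of a radial function -/
lemma hasFDerivAt_radial {g : ℝ → ℝ} {g' : ℝ} (a y : E n) (hg : HasDerivAt g g' (‖y - a‖ ^ 2)) :
    HasFDerivAt (fun y : E n => g (‖y - a‖ ^ 2)) (g' • ((2 : ℝ) • innerSL ℝ (y - a))) y :=
  hg.comp_hasFDerivAt y (hasFDerivAt_normsq a y)

lemma contDiffAt_radial {g : ℝ → ℝ} (a y : E n) (hg : ContDiffAt ℝ 2 g (‖y - a‖ ^ 2)) :
    ContDiffAt ℝ 2 (fun y : E n => g (‖y - a‖ ^ 2)) y := by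
  have h : ContDiff ℝ 2 (fun y : E n => ‖y - a‖ ^ 2) :=
    (contDiff_id.sub contDiff_const).norm_sq ℝ
  exact ContDiffAt.comp (g := g) y hg h.contDiffAt

/-- Laplacian of a radial function -/
lemma lap_radial {g : ℝ → ℝ} (a x : E n) (hg : ContDiffAt ℝ 2 g (‖x - a‖ ^ 2)) :
    Δ (fun y : E n => g (‖y - a‖ ^ 2)) x =
      4 * ‖x - a‖ ^ 2 * deriv (deriv g) (‖x - a‖ ^ 2) + 2 * n * deriv g (‖x - a‖ ^ 2) := by
  rw [lap_eq' (contDiffAt_radial a x hg)]
  have hc : ContinuousAt (fun y : E n => ‖y - a‖ ^ 2) x := by fun_prop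
  have hev : ∀ᶠ s in 𝓝 (‖x - a‖ ^ 2), ContDiffAt ℝ 2 g s := hg.eventually (by simp)
  have hev' : ∀ᶠ y in 𝓝 x, ContDiffAt ℝ 2 g (‖y - a‖ ^ 2) := hc.eventually hev
  have hd2 : HasDerivAt (deriv g) (deriv (deriv g) (‖x - a‖ ^ 2)) (‖x - a‖ ^ 2) := by
    have : ContDiffAt ℝ 1 (deriv g) (‖x - a‖ ^ 2) := by
      have h := hg.fderiv_right (m := 1) (by norm_num)
      have : deriv g = fun s => fderiv ℝ g s 1 := by ext s; simp
      rw [this]
      exact h.clm_apply contDiffAt_const
    exact (this.differentiableAt (by norm_num)).hasDerivAt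
  have key : ∀ i, fderiv ℝ (fun y => fderiv ℝ (fun y : E n => g (‖y - a‖ ^ 2)) y (ee i)) x (ee i)
      = 4 * (inner ℝ (x - a) (ee i)) ^ 2 * deriv (deriv g) (‖x - a‖ ^ 2)
        + 2 * deriv g (‖x - a‖ ^ 2) := by
    intro i
    have h1 : (fun y => fderiv ℝ (fun y : E n => g (‖y - a‖ ^ 2)) y (ee i)) =ᶠ[𝓝 x]
        fun y => deriv g (‖y - a‖ ^ 2) * (2 * inner ℝ (ee i) (y - a)) := by
      filter_upwards [hev'] with y hy
      rw [(hasFDerivAt_radial a y (hy.differentiableAt (by norm_num)).hasDerivAt).fderiv]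
      simp only [smul_apply, innerSL_apply_apply, smul_eq_mul, real_inner_comm (y - a) (ee i)]
    rw [h1.fderiv_eq]
    have h2 := hasFDerivAt_radial a x hd2
    have h3 : HasFDerivAt (fun y : E n => 2 * inner ℝ (ee i) (y - a))
        ((2 : ℝ) • innerSL ℝ (ee i)) x := by
      have := ((innerSL ℝ (ee i : E n)).hasFDerivAt (x := x - a)).comp x
        ((hasFDerivAt_id x).sub_const a)
      have := this.const_mul 2
      refine HasFDerivAt.congr_fderiv (f := fun y : E n => 2 * inner ℝ (ee i) (y - a)) this ?_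
      ext v
      simp
    rw [(h2.fun_mul h3).fderiv]
    have hn : inner ℝ (ee i : E n) (ee i) = 1 := by
      rw [real_inner_self_eq_norm_sq, norm_ee]; norm_num
    simp only [add_apply, smul_apply, innerSL_apply_apply,
      smul_eq_mul, hn, real_inner_comm (x - a) (ee i)]
    ring
  simp only [key, Finset.sum_add_distrib, Finset.sum_const, Finset.card_univ, Fintype.card_fin,
    nsmul_eq_mul]
  rw [← Finset.sum_mul, ← Finset.mul_sum, sum_inner_ee_sq]
  ring

/-- second-derivative test -/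
lemma lap_nonneg_of_isLocalMin {f : E n → ℝ} {x : E n} (hf : ContDiffAt ℝ 2 f x)
    (hm : IsLocalMin f x) : 0 ≤ Δ f x := by
  rw [lap_eq]
  refine Finset.sum_nonneg fun i _ => ?_
  by_contra hneg
  push Not at hneg
  set v : E n := ee i
  let l : ℝ → E n := fun t => x + t • v
  have hl : ∀ t, HasDerivAt l v t := fun t => by
    have h := ((hasDerivAt_id t).smul_const v).const_add x
    rw [one_smul] at h
    exact h
  have hl0 : l 0 = x := by simp [l]
  have hlc : ContinuousAt l 0 := (hl 0).continuousAt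
  have hev : ∀ᶠ y in 𝓝 x, ContDiffAt ℝ 2 f y := hf.eventually (by simp)
  have hev' : ∀ᶠ t in 𝓝 (0 : ℝ), ContDiffAt ℝ 2 f (l t) := by
    apply hlc.eventually; rwa [hl0]
  have hd : deriv (f ∘ l) =ᶠ[𝓝 0] fun t => fderiv ℝ f (l t) v := by
    filter_upwards [hev'] with t ht
    exact ((ht.differentiableAt (by norm_num)).hasFDerivAt.comp_hasDerivAt t (hl t)).deriv
  have hmin : IsLocalMin (f ∘ l) 0 := by
    apply IsLocalMin.comp_continuous _ hlc; rwa [hl0]
  have h1 : DifferentiableAt ℝ (fderiv ℝ f) x :=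
    (hf.fderiv_right (m := 1) (by norm_num)).differentiableAt (by norm_num)
  have hdd : deriv (deriv (f ∘ l)) 0 = fderiv ℝ (fderiv ℝ f) x v v := by
    rw [hd.deriv_eq]
    have h2 : HasDerivAt (fun t => fderiv ℝ f (l t)) (fderiv ℝ (fderiv ℝ f) x v) 0 := by
      have := h1.hasFDerivAt
      rw [← hl0] at this
      have := this.comp_hasDerivAt (0 : ℝ) (hl 0)
      rw [hl0] at this
      exact this
    have := h2.clm_apply (hasDerivAt_const (0 : ℝ) v)
    simpa using this.deriv
  have hc : ContinuousAt (f ∘ l) 0 := by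
    apply ContinuousAt.comp _ hlc; rw [hl0]; exact hf.continuousAt
  have hmax : IsLocalMax (f ∘ l) 0 :=
    isLocalMax_of_deriv_deriv_neg (by rw [hdd]; exact hneg) hmin.deriv_eq_zero hc
  have hconst : (f ∘ l) =ᶠ[𝓝 0] fun _ => (f ∘ l) 0 := by
    filter_upwards [hmin, hmax] with t h1 h2 using le_antisymm h2 h1
  have : deriv (deriv (f ∘ l)) 0 = 0 := by
    rw [hconst.deriv.deriv_eq]; simp
  rw [hdd] at this
  exact hneg.ne this

/-- product rule -/
lemma lap_mul {f g : E n → ℝ} {x : E n} (hf : ContDiffAt ℝ 2 f x) (hg : ContDiffAt ℝ 2 g x) :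
    Δ (fun y => f y * g y) x = f x * Δ g x + g x * Δ f x
      + 2 * ∑ i, fderiv ℝ f x (ee i) * fderiv ℝ g x (ee i) := by
  rw [lap_eq' (hf.mul hg), lap_eq' hf, lap_eq' hg, Finset.mul_sum, Finset.mul_sum, Finset.mul_sum,
    ← Finset.sum_add_distrib, ← Finset.sum_add_distrib]
  refine Finset.sum_congr rfl fun i _ => ?_
  have hf' : ∀ᶠ y in 𝓝 x, ContDiffAt ℝ 2 f y := hf.eventually (by simp)
  have hg' : ∀ᶠ y in 𝓝 x, ContDiffAt ℝ 2 g y := hg.eventually (by simp)
  have h1 : (fun y => fderiv ℝ (fun y => f y * g y) y (ee i)) =ᶠ[𝓝 x]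
      fun y => f y * fderiv ℝ g y (ee i) + g y * fderiv ℝ f y (ee i) := by
    filter_upwards [hf', hg'] with y hy hy'
    rw [fderiv_fun_mul (hy.differentiableAt (by norm_num)) (hy'.differentiableAt (by norm_num))]
    simp
  have df : DifferentiableAt ℝ f x := hf.differentiableAt (by norm_num)
  have dg : DifferentiableAt ℝ g x := hg.differentiableAt (by norm_num)
  have df' : DifferentiableAt ℝ (fun y => fderiv ℝ f y (ee i)) x :=
    ((hf.fderiv_right (m := 1) (by norm_num)).clm_apply contDiffAt_const).differentiableAt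
      (by norm_num)
  have dg' : DifferentiableAt ℝ (fun y => fderiv ℝ g y (ee i)) x :=
    ((hg.fderiv_right (m := 1) (by norm_num)).clm_apply contDiffAt_const).differentiableAt
      (by norm_num)
  rw [h1.fderiv_eq, fderiv_fun_add (df.fun_mul dg') (dg.fun_mul df'), fderiv_fun_mul df dg',
    fderiv_fun_mul dg df']
  simp only [add_apply, smul_apply, smul_eq_mul]
  ring

lemma integrable_mul_of_supp {a b : E n → ℝ} {U K : Set (E n)} (hK : IsCompact K) (hKU : K ⊆ U)
    (ha : ContinuousOn a U) (hb : Continuous b) (hs : ∀ x, x ∉ K → b x = 0) :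
    Integrable (fun x => a x * b x) := by
  have h1 : IntegrableOn (fun x => a x * b x) K :=
    ((ha.mono hKU).mul hb.continuousOn).integrableOn_compact hK
  refine (integrableOn_iff_integrable_of_support_subset ?_).1 h1
  intro x hx
  by_contra h
  exact hx (by simp [hs x h])

/-- Green's identity against a compactly supported test function -/
lemma green {u φ : E n → ℝ} {U : Set (E n)} (hU : IsOpen U) (hu : ContDiffOn ℝ 2 u U)
    (hφ : ContDiff ℝ 2 φ) (hc : HasCompactSupport φ) (hs : tsupport φ ⊆ U) :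
    ∫ x, u x * Δ φ x = ∫ x, Δ u x * φ x := by
  have hK : IsCompact (tsupport φ) := hc
  have huA : ∀ x ∈ U, ContDiffAt ℝ 2 u x := fun x hx => hu.contDiffAt (hU.mem_nhds hx)
  -- directional derivatives
  let d : (E n → ℝ) → Fin n → E n → ℝ := fun f i y => fderiv ℝ f y (ee i)
  have hφ1 : ∀ i, ContDiff ℝ 1 (d φ i) := fun i =>
    (hφ.fderiv_right (m := 1) (by norm_num)).clm_apply contDiff_const
  have hu1 : ∀ i, ∀ x ∈ U, ContDiffAt ℝ 1 (d u i) x := fun i x hx =>
    ((huA x hx).fderiv_right (m := 1) (by norm_num)).clm_apply contDiffAt_const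
  have hφ2 : ∀ i, Continuous (d (d φ i) i) := fun i =>
    (((hφ1 i).fderiv_right (m := 0) (by norm_num)).clm_apply contDiff_const).continuous
  have hu2 : ∀ i, ContinuousOn (d (d u i) i) U := fun i x hx =>
    (((hu1 i x hx).fderiv_right (m := 0) (by norm_num)).clm_apply
      contDiffAt_const).continuousAt.continuousWithinAt
  have hu1c : ∀ i, ContinuousOn (d u i) U := fun i x hx =>
    (hu1 i x hx).continuousAt.continuousWithinAt
  have s1 : ∀ i, tsupport (d φ i) ⊆ tsupport φ := fun i => tsupport_fderiv_apply_subset ℝ _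
  have s2 : ∀ i, tsupport (d (d φ i) i) ⊆ tsupport φ := fun i =>
    (tsupport_fderiv_apply_subset ℝ _).trans (s1 i)
  have z0 : ∀ x, x ∉ tsupport φ → φ x = 0 := fun x hx => image_eq_zero_of_notMem_tsupport hx
  have z1 : ∀ i x, x ∉ tsupport φ → d φ i x = 0 := fun i x hx =>
    image_eq_zero_of_notMem_tsupport fun h => hx (s1 i h)
  have z2 : ∀ i x, x ∉ tsupport φ → d (d φ i) i x = 0 := fun i x hx =>
    image_eq_zero_of_notMem_tsupport fun h => hx (s2 i h)
  have i02 : ∀ i, Integrable (fun x => u x * d (d φ i) i x) := fun i =>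
    integrable_mul_of_supp hK hs hu.continuousOn (hφ2 i) (z2 i)
  have i01 : ∀ i, Integrable (fun x => u x * d φ i x) := fun i =>
    integrable_mul_of_supp hK hs hu.continuousOn (hφ1 i).continuous (z1 i)
  have i11 : ∀ i, Integrable (fun x => d u i x * d φ i x) := fun i =>
    integrable_mul_of_supp hK hs (hu1c i) (hφ1 i).continuous (z1 i)
  have i10 : ∀ i, Integrable (fun x => d u i x * φ x) := fun i =>
    integrable_mul_of_supp hK hs (hu1c i) hφ.continuous z0
  have i20 : ∀ i, Integrable (fun x => d (d u i) i x * φ x) := fun i =>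
    integrable_mul_of_supp hK hs (hu2 i) hφ.continuous z0
  have key : ∀ i, ∫ x, u x * d (d φ i) i x = ∫ x, d (d u i) i x * φ x := by
    intro i
    have e1 : ∫ x, u x * d (d φ i) i x = - ∫ x, d u i x * d φ i x :=
      integral_mul_fderiv_eq_neg_fderiv_mul_of_integrable (i11 i) (i02 i) (i01 i)
        (fun x hx => (huA x (hs (s1 i hx))).differentiableAt (by norm_num))
        (fun x _ => ((hφ1 i).differentiable (by norm_num)) x)
    have e2 : ∫ x, d u i x * d φ i x = - ∫ x, d (d u i) i x * φ x :=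
      integral_mul_fderiv_eq_neg_fderiv_mul_of_integrable (i20 i) (i11 i) (i10 i)
        (fun x hx => (hu1 i x (hs hx)).differentiableAt (by norm_num))
        (fun x _ => (hφ.differentiable (by norm_num)) x)
    rw [e1, e2, neg_neg]
  have l1 : (fun x => u x * Δ φ x) = fun x => ∑ i, u x * d (d φ i) i x := by
    ext x; rw [lap_eq' hφ.contDiffAt, Finset.mul_sum]
  have l2 : (fun x => Δ u x * φ x) = fun x => ∑ i, d (d u i) i x * φ x := by
    ext x
    by_cases hx : x ∈ tsupport φ
    · rw [lap_eq' (huA x (hs hx)), Finset.sum_mul]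
    · simp [z0 x hx]
  rw [l1, l2, integral_finsetSum _ (fun i _ => i02 i), integral_finsetSum _ (fun i _ => i20 i)]
  exact Finset.sum_congr rfl fun i _ => key i

lemma continuous_lap {φ : E n → ℝ} (hφ : ContDiff ℝ 2 φ) : Continuous (Δ φ) := by
  have : Δ φ = fun x => ∑ i, fderiv ℝ (fderiv ℝ φ) x (ee i) (ee i) := by ext x; exact lap_eq φ x
  rw [this]
  have h : Continuous (fderiv ℝ (fderiv ℝ φ)) :=
    ((hφ.fderiv_right (m := 1) (by norm_num)).fderiv_right (m := 0) (by norm_num)).continuous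
  fun_prop

end Vale.Agent.P100H
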