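import Vale.Agent.P100H.Lap

/-! P100: the planar case. A nonnegative continuous function on the plane cannot be strictly
superharmonic off the origin. -/

open MeasureTheory Set Filter Topology InnerProductSpace Laplacian

namespace Vale.Agent.P100H

variable {n : ℕ}

/-- minimum principle on an annulus -/
lemma min_annulus {w : E n → ℝ} {a b m : ℝ} (hc : ContinuousOn w {x | a ≤ ‖x‖ ∧ ‖x‖ ≤ b})
    (h2 : ∀ x : E n, a < ‖x‖ → ‖x‖ < b → ContDiffAt ℝ 2 w x ∧ Δ w x < 0)
    (hb : ∀ x : E n, ‖x‖ = a ∨ ‖x‖ = b → m ≤ w x) (x : E n) (hx1 : a ≤ ‖x‖) (hx2 : ‖x‖ ≤ b) :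
    m ≤ w x := by
  have hK : IsCompact {x : E n | a ≤ ‖x‖ ∧ ‖x‖ ≤ b} := by
    refine (isCompact_closedBall (0 : E n) b).of_isClosed_subset ?_ ?_
    · exact (isClosed_le continuous_const continuous_norm).inter
        (isClosed_le continuous_norm continuous_const)
    · intro y hy; simpa using hy.2
  obtain ⟨y, hy, hmin⟩ := hK.exists_isMinOn ⟨x, hx1, hx2⟩ hc
  have hxy : w y ≤ w x := hmin (show x ∈ {x : E n | a ≤ ‖x‖ ∧ ‖x‖ ≤ b} from ⟨hx1, hx2⟩)
  by_cases h : ‖y‖ = a ∨ ‖y‖ = b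
  · exact (hb y h).trans hxy
  · push Not at h
    have h1 : a < ‖y‖ := lt_of_le_of_ne hy.1 h.1.symm
    have h3 : ‖y‖ < b := lt_of_le_of_ne hy.2 h.2
    have hn : {x : E n | a ≤ ‖x‖ ∧ ‖x‖ ≤ b} ∈ 𝓝 y := by
      have : ∀ᶠ z in 𝓝 y, a < ‖z‖ ∧ ‖z‖ < b :=
        (continuous_norm.continuousAt.eventually (lt_mem_nhds h1)).and
          (continuous_norm.continuousAt.eventually (gt_mem_nhds h3))
      filter_upwards [this] with z hz using ⟨hz.1.le, hz.2.le⟩
    have := lap_nonneg_of_isLocalMin (h2 y h1 h3).1 (hmin.isLocalMin hn)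
    exact absurd (h2 y h1 h3).2 (not_lt.2 this)

lemma contDiffAt_logsq {x : E n} (hx : x ≠ 0) :
    ContDiffAt ℝ 2 (fun y : E n => Real.log (‖y - 0‖ ^ 2)) x :=
  contDiffAt_radial 0 x (Real.contDiffAt_log.2 (by simpa using hx))

lemma lap_logsq {x : E 2} (hx : x ≠ 0) : Δ (fun y : E 2 => Real.log (‖y - 0‖ ^ 2)) x = 0 := by
  have h0 : ‖x - 0‖ ^ 2 ≠ 0 := by simpa using hx
  rw [lap_radial 0 x (Real.contDiffAt_log.2 h0)]
  have : deriv Real.log = fun s => s⁻¹ := by ext s; simp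
  rw [this, deriv_inv]
  field_simp
  norm_num

lemma aux_twoD {u : E 2 → ℝ} (hu : ContDiffOn ℝ 2 u {0}ᶜ) (hc : Continuous u)
    (hl : ∀ x ≠ 0, Δ u x < 0) {a b m c : ℝ} (ha : 0 < a)
    (hb : ∀ x : E 2, ‖x‖ = a ∨ ‖x‖ = b → m ≤ u x + c * Real.log (‖x - 0‖ ^ 2))
    (x : E 2) (hx1 : a ≤ ‖x‖) (hx2 : ‖x‖ ≤ b) : m ≤ u x + c * Real.log (‖x - 0‖ ^ 2) := by
  have hne : ∀ y : E 2, a ≤ ‖y‖ → y ≠ 0 := fun y hy => norm_pos_iff.1 (ha.trans_le hy)
  refine min_annulus (w := fun x => u x + c * Real.log (‖x - 0‖ ^ 2)) ?_ ?_ hb x hx1 hx2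
  · intro y hy
    exact (hc.continuousAt.add
      (continuousAt_const.mul (contDiffAt_logsq (hne y hy.1)).continuousAt)).continuousWithinAt
  · intro y h1 _
    have hy := hne y h1.le
    have h3 : ContDiffAt ℝ 2 u y := hu.contDiffAt (isOpen_compl_singleton.mem_nhds hy)
    have h4 : ContDiffAt ℝ 2 (c • fun y : E 2 => Real.log (‖y - 0‖ ^ 2)) y :=
      (contDiffAt_logsq hy).const_smul c
    refine ⟨h3.add (contDiffAt_const.mul (contDiffAt_logsq hy)), ?_⟩
    have h5 := h3.laplacian_add h4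
    rw [laplacian_smul c (contDiffAt_logsq hy), lap_logsq hy] at h5
    have h6 : (fun x => u x + c * Real.log (‖x - 0‖ ^ 2)) =
        u + c • fun y : E 2 => Real.log (‖y - 0‖ ^ 2) := by ext z; simp
    rw [h6, h5]
    simpa using hl y hy

theorem twoD {u : E 2 → ℝ} (hu : ContDiffOn ℝ 2 u {0}ᶜ) (hc : Continuous u)
    (hpos : ∀ x, 0 ≤ u x) (hl : ∀ x ≠ 0, Δ u x < 0) : False := by
  obtain ⟨x1, hx1, hmin⟩ := (isCompact_sphere (0 : E 2) 1).exists_isMinOn
    ⟨ee 0, by simp [norm_ee]⟩ hc.continuousOn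
  have hx1n : ‖x1‖ = 1 := by simpa using hx1
  set m := u x1
  have hm : ∀ y : E 2, ‖y‖ = 1 → m ≤ u y := fun y hy => hmin (by simpa using hy)
  have hm0 : 0 ≤ m := hpos x1
  have key : ∀ x : E 2, x ≠ 0 → m ≤ u x := by
    intro x hx
    have hxn : 0 < ‖x‖ := norm_pos_iff.2 hx
    -- for every ε > 0
    have h1 : ∀ ε : ℝ, 0 < ε → m ≤ u x + ε * |Real.log (‖x - 0‖ ^ 2)| := by
      intro ε hε
      set R := Real.exp (m / ε) with hR
      have hR1 : 1 ≤ R := Real.one_le_exp (by positivity)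
      rcases le_total 1 ‖x‖ with h | h
      · have := aux_twoD hu hc hl (a := 1) (b := max R ‖x‖) (m := m) (c := ε) one_pos ?_ x h
          (le_max_right _ _)
        · exact this.trans (by gcongr; exact le_abs_self _)
        · rintro y (hy | hy)
          · simpa [hy] using hm y hy
          · have h2 : m / ε ≤ Real.log (‖y - 0‖ ^ 2) := by
              rw [Real.le_log_iff_exp_le (by rw [sub_zero, hy]; positivity), sub_zero, hy]
              have : R ≤ max R ‖x‖ := le_max_left _ _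
              nlinarith
            have h3 : m ≤ ε * Real.log (‖y - 0‖ ^ 2) := by
              rwa [div_le_iff₀' hε] at h2
            linarith [hpos y]
      · have hRi : 0 < R⁻¹ := by positivity
        have := aux_twoD hu hc hl (a := min R⁻¹ ‖x‖) (b := 1) (m := m) (c := -ε)
          (lt_min hRi hxn) ?_ x (min_le_right _ _) h
        · refine this.trans ?_
          have := neg_abs_le (Real.log (‖x - 0‖ ^ 2))
          nlinarith
        · rintro y (hy | hy)
          · have hy0 : 0 < ‖y‖ := by rw [hy]; exact lt_min hRi hxn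
            have h2 : Real.log (‖y - 0‖ ^ 2) ≤ -(m / ε) := by
              rw [Real.log_le_iff_le_exp (by rw [sub_zero]; positivity), sub_zero, Real.exp_neg,
                ← hR]
              have h4 : ‖y‖ ≤ R⁻¹ := by rw [hy]; exact min_le_left _ _
              have h5 : R⁻¹ ≤ 1 := inv_le_one_of_one_le₀ hR1
              nlinarith
            have h3 : m ≤ -ε * Real.log (‖y - 0‖ ^ 2) := by
              have : ε * (m / ε) = m := by field_simp
              nlinarith
            linarith [hpos y]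
          · simpa [hy] using hm y hy
    have h2 : Tendsto (fun ε : ℝ => u x + ε * |Real.log (‖x - 0‖ ^ 2)|) (𝓝[>] 0)
        (𝓝 (u x + 0 * |Real.log (‖x - 0‖ ^ 2)|)) :=
      tendsto_nhdsWithin_of_tendsto_nhds (Continuous.tendsto (by fun_prop) 0)
    have := ge_of_tendsto h2 (by filter_upwards [self_mem_nhdsWithin] with ε hε using h1 ε hε)
    simpa using this
  have hx0 : x1 ≠ 0 := by
    intro h; rw [h] at hx1n; simp at hx1n
  have hloc : IsLocalMin u x1 := by
    filter_upwards [isOpen_compl_singleton.mem_nhds hx0] with y hy using key y hy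
  exact absurd (hl x1 hx0) (not_lt.2 (lap_nonneg_of_isLocalMin
    (hu.contDiffAt (isOpen_compl_singleton.mem_nhds hx0)) hloc))

end Vale.Agent.P100H
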